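import Vale.Agent.P207.N4.Spec
import Vale.Agent.P207.H9.CrossM

/-!
# P207, line N4, step 9: interfaces (flat charts with the conformal factor, calibration)
-/

open Set Filter Topology Metric MeasureTheory
open scoped ContDiff

noncomputable section

namespace Vale.Agent.P207.N4.H9

open Vale.Agent.P207.H9.CrossM (dtT)

variable [Dim] {Γ X B : Type} [Group Γ] [MetricSpace X] [ProperSpace X] [MulAction Γ X]
  [IsIsometricSMul Γ X] [TopologicalSpace B] [CompactSpace B] [T2Space B] [MulAction Γ B]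
  [ContinuousConstSMul Γ B] [MeasurableSpace B] [BorelSpace B]

/-- the inverse of a chart of the leaf of `w` -/
def invZ (L : Leaf Γ X B) (Z : X → B → E2) (w : X) (z : E2) : B :=
  @Function.invFunOn _ _ ⟨L.em w⟩ (Z w) {L.em w}ᶜ z

/-- Flat charts `Z w` of the leaves `B ∖ {em w}` (scaled by the frame `w`) whose area is a constant
multiple of the Margulis area; the transition from one leaf to another leaf multiplies the volume
by `c / |x - p|^(2m)`, `p` the point at infinity of the second leaf. -/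
structure FlatM (L : Leaf Γ X B) (A : Area L) where
  Z : X → B → E2
  Z_bij : ∀ w, BijOn (Z w) {L.em w}ᶜ univ
  Z_leaf : ∀ w w', L.em w = L.em w' → L.lv w = L.lv w' → ∀ η η', η ≠ L.em w → η' ≠ L.em w →
    dist (Z w η) (Z w η') = dist (Z w' η) (Z w' η')
  Z_C1 : ∀ w, ContDiffOn ℝ 1 (fun u => Z w (L.e w u)) (ball 0 2)
  c₀ : ℝ
  c₀_pos : 0 < c₀
  Z_det : ∀ w, ∀ u ∈ ball (0 : E2) 2,
    |(fderiv ℝ (fun u => Z w (L.e w u)) u).det| = c₀ * A.s w u
  conf : ∀ w w', L.em w ≠ L.em w' → ∃ c : ℝ, 0 < c ∧ ∀ x, x ≠ Z w (L.em w') →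
    ∃ P : E2 →L[ℝ] E2, HasFDerivAt (fun x => Z w' (invZ L Z w x)) P x ∧
      |P.det| = c / ‖x - Z w (L.em w')‖ ^ (2 * Dim.m)

/-- The calibration at one frame `x` whose foot point is the base point `p` of the level function:
second difference of `D` and the product of the two areas. In the geometry
`T u u' = r₀² ⟨S u, u'⟩`, `S = U + U ∘ flip`. -/
structure CalibM (L : Leaf Γ X B) (A : Area L) where
  x : X
  T : E2 → E2 → ℝ
  T_pos : 0 < dtT T
  D_zero : A.D (L.em x) (L.ep x) = 0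
  s_mul : A.s x 0 * A.s (L.flip x) 0 = dtT T
  lim : ∀ u u' : E2, Tendsto (fun t : ℝ =>
    (A.D (L.e (L.flip x) (t • u')) (L.e x (t • u)) + A.D (L.em x) (L.ep x) -
      A.D (L.em x) (L.e x (t • u)) - A.D (L.e (L.flip x) (t • u')) (L.ep x)) / t ^ 2)
    (𝓝[>] 0) (𝓝 (-T u u'))
  D_nonpos : ∀ ξ η, ξ ≠ η → A.D ξ η ≤ 0

end Vale.Agent.P207.N4.H9
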