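import Vale.Agent.P207.N4.H9.FlatM

set_option linter.all false

/-!
# P207, line N4, step 9: the function `D`, topology of the flat charts
-/

namespace Vale.Agent.P207.N4.H9
open Set Filter Topology Metric MeasureTheory
open scoped ENNReal

noncomputable section

variable [Dim] {Γ X B : Type} [Group Γ] [MetricSpace X] [ProperSpace X] [MulAction Γ X]
  [IsIsometricSMul Γ X] [TopologicalSpace B] [CompactSpace B] [T2Space B] [MulAction Γ B]
  [ContinuousConstSMul Γ B]

section top

variable (L : Leaf Γ X B)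

lemma ep_cont : Continuous L.ep := by
  have : L.ep = fun x => L.em (L.flip x) := funext L.ep_flip
  rw [this]
  exact L.em_cont.comp L.flip_cont

lemma e_contOn (x : X) : ContinuousOn (L.e x) (closedBall 0 3) := by
  have h : ContinuousOn (fun u : E2 => (x, u)) (closedBall 0 3) := by fun_prop
  exact L.e_cont.comp h (fun u hu => ⟨mem_univ _, hu⟩)

lemma isOpen_img3 (x : X) : IsOpen (L.e x '' ball 0 3) := by
  have h : Continuous fun η : B => (x, η) := by fun_prop
  exact L.e_open.preimage h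

/-- images of open subsets of the disc are open -/
lemma isOpen_img (x : X) {V : Set E2} (hV : IsOpen V) (hV3 : V ⊆ ball 0 3) :
    IsOpen (L.e x '' V) := by
  have hc : IsCompact (L.e x '' (closedBall 0 3 \ V)) := by
    have h1 : IsCompact (closedBall (0 : E2) 3 \ V) := (isCompact_closedBall _ _).diff hV
    exact h1.image_of_continuousOn ((e_contOn L x).mono diff_subset)
  have he : L.e x '' V = L.e x '' ball 0 3 \ (L.e x '' (closedBall 0 3 \ V)) := by
    ext η
    constructor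
    · rintro ⟨u, hu, rfl⟩
      refine ⟨⟨u, hV3 hu, rfl⟩, ?_⟩
      rintro ⟨v, hv, hvu⟩
      have : v = u := L.e_inj x hv.1 (ball_subset_closedBall (hV3 hu)) hvu
      exact hv.2 (this ▸ hu)
    · rintro ⟨⟨u, hu, rfl⟩, hn⟩
      refine ⟨u, ?_, rfl⟩
      by_contra hcon
      exact hn ⟨u, ⟨ball_subset_closedBall hu, hcon⟩, rfl⟩
  rw [he]
  exact (isOpen_img3 L x).sdiff hc.isClosed

lemma em_flip (x : X) : L.em (L.flip x) = L.ep x := (L.ep_flip x).symm

lemma ep_flip' (x : X) : L.ep (L.flip x) = L.em x := by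
  rw [L.ep_flip, L.flip_flip]

end top

/-! ### the function `D` -/

section D

variable {L : Leaf Γ X B} [MeasurableSpace B] [BorelSpace B] (A : Area L)

lemma D_eq' (x : X) : A.D (L.em x) (L.ep x) = L.lv x + L.lv (L.flip x) := A.D_eq x

lemma D_symm {ξ η : B} (h : ξ ≠ η) : A.D ξ η = A.D η ξ := by
  obtain ⟨x, h1, h2, -⟩ := L.exists_frame ξ η h 0
  have e1 := D_eq' A x
  have e2 := D_eq' A (L.flip x)
  rw [em_flip, ep_flip', L.flip_flip] at e2
  rw [← h1, ← h2, e1, e2, add_comm]

lemma D_contAt {ξ η : B} (h : η ≠ ξ) : ContinuousAt (fun η => A.D ξ η) η := by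
  rw [ContinuousAt, tendsto_iff_ultrafilter]
  intro U hU
  have U1 : Tendsto (fun p : B => p) U (𝓝 η) := hU
  have a1 : ∀ᶠ p : B in U, p ≠ ξ := U1.eventually_ne h
  have hz0 : ∀ p : B, ∃ x : X, p ≠ ξ → L.em x = ξ ∧ L.ep x = p ∧ L.lv x = 0 := by
    intro p
    by_cases hp : p = ξ
    · exact ⟨L.nonempty.some, fun h => absurd hp h⟩
    · obtain ⟨x, hx⟩ := L.exists_frame ξ p (fun h => hp h.symm) 0
      exact ⟨x, fun _ => hx⟩
  choose z0 hz0 using hz0
  obtain ⟨N, hNn, hNs, hNc⟩ : ∃ N ∈ 𝓝 η, N ⊆ {ξ}ᶜ ∧ IsCompact N :=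
    local_compact_nhds (isOpen_compl_singleton.mem_nhds h)
  have hNU : ∀ᶠ p : B in U, p ∈ N := U1 hNn
  set C0 : Set X := {x | (L.em x, L.ep x) ∈ ({ξ} : Set B) ×ˢ N ∧ |L.lv x| ≤ 0} with hC0
  have hC0c : IsCompact C0 := by
    refine L.hopf_proper _ (isCompact_singleton.prod hNc) ?_ _
    rintro ⟨a, b⟩ ⟨ha, hb⟩ hab
    have ha' : a = ξ := ha
    have hb' : b ∈ N := hb
    have hab' : a = b := hab
    exact hNs hb' (by rw [← hab']; exact ha)
  have hz0C : ∀ᶠ p in U, z0 p ∈ C0 := by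
    filter_upwards [a1, hNU] with p h1 h2
    obtain ⟨e1, e2, e3⟩ := hz0 p h1
    refine ⟨⟨e1, ?_⟩, by rw [e3, abs_zero]⟩
    show L.ep (z0 p) ∈ N
    rw [e2]
    exact h2
  obtain ⟨yh, hyh, hlim0⟩ : ∃ x ∈ C0, Tendsto z0 U (𝓝 x) :=
    hC0c.ultrafilter_le_nhds (U.map z0) (by
      rw [le_principal_iff]
      exact hz0C)
  have em_yh : L.em yh = ξ := hyh.1.1
  have ep_yh : L.ep yh = η := by
    refine tendsto_nhds_unique (((ep_cont L).tendsto yh).comp hlim0) (U1.congr' ?_)
    filter_upwards [a1] with p h1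
    exact (hz0 p h1).2.1.symm
  have lv_yh : L.lv yh = 0 := by
    have := hyh.2
    exact abs_eq_zero.mp (le_antisymm this (abs_nonneg _))
  have e1 : A.D ξ η = L.lv (L.flip yh) := by
    have := D_eq' A yh
    rw [em_yh, ep_yh, lv_yh, zero_add] at this
    exact this
  rw [e1]
  have h2 : Tendsto (fun p => L.lv (L.flip (z0 p))) U (𝓝 (L.lv (L.flip yh))) :=
    ((L.lv_cont.comp L.flip_cont).tendsto yh).comp hlim0
  refine h2.congr' ?_
  filter_upwards [a1] with p h1
  obtain ⟨q1, q2, q3⟩ := hz0 p h1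
  have := D_eq' A (z0 p)
  rw [q1, q2, q3, zero_add] at this
  exact this.symm

end D

/-! ### the charts -/

namespace FlatM

variable {L : Leaf Γ X B} [MeasurableSpace B] [BorelSpace B] {A : Area L} (F : FlatM L A)

/-- the inverse of the chart -/
def inv (w : X) (z : E2) : B := invZ L F.Z w z

lemma inv_ne (w : X) (z : E2) : F.inv w z ≠ L.em w := by
  haveI : Nonempty B := ⟨L.em w⟩
  exact Function.invFunOn_mem ((F.Z_bij w).surjOn (mem_univ z))

lemma Z_inv (w : X) (z : E2) : F.Z w (F.inv w z) = z := by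
  haveI : Nonempty B := ⟨L.em w⟩
  exact Function.invFunOn_eq ((F.Z_bij w).surjOn (mem_univ z))

lemma inv_Z {w : X} {η : B} (h : η ≠ L.em w) : F.inv w (F.Z w η) = η :=
  (F.Z_bij w).injOn (F.inv_ne w _) h (F.Z_inv w _)

lemma inv_inj (w : X) : Function.Injective (F.inv w) := fun a b h => by
  rw [← F.Z_inv w a, h, F.Z_inv]

lemma inv_range (w : X) : range (F.inv w) = {L.em w}ᶜ := by
  ext η
  constructor
  · rintro ⟨z, rfl⟩
    exact F.inv_ne w z
  · intro h
    exact ⟨F.Z w η, F.inv_Z h⟩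

lemma e_ne_em (x : X) {u : E2} (hu : u ∈ ball (0 : E2) 3) : L.e x u ≠ L.em x :=
  L.e_ne x u (ball_subset_closedBall hu)

lemma ball23 : ball (0 : E2) 2 ⊆ ball 0 3 := ball_subset_ball (by norm_num)

lemma Ze_contDiffAt (x : X) {u : E2} (hu : u ∈ ball (0 : E2) 2) :
    ContDiffAt ℝ 1 (fun u => F.Z x (L.e x u)) u :=
  (F.Z_C1 x).contDiffAt (isOpen_ball.mem_nhds hu)

/-- the derivative of the chart at the centre is invertible: the image of a neighbourhood of the
centre is a neighbourhood -/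
lemma Ze_map_nhds (x : X) :
    map (fun u => F.Z x (L.e x u)) (𝓝 0) = 𝓝 (F.Z x (L.e x 0)) := by
  have h0 : (0 : E2) ∈ ball (0 : E2) 2 := mem_ball_self (by norm_num)
  have h1 := (F.Ze_contDiffAt x h0).hasStrictFDerivAt (by norm_num)
  have h2 := F.Z_det x 0 h0
  have h3 : 0 < A.s x 0 := A.s_pos x 0 (mem_ball_self (by norm_num))
  have h4 : (fderiv ℝ (fun u => F.Z x (L.e x u)) 0).det ≠ 0 := by
    intro h
    rw [h, abs_zero] at h2
    have := F.c₀_pos
    have : 0 < F.c₀ * A.s x 0 := by positivity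
    linarith
  have h5 := h1
  refine HasStrictFDerivAt.map_nhds_eq_of_surj h1 ?_
  rw [LinearMap.range_eq_top]
  have h6 : IsUnit (LinearMap.det (fderiv ℝ (fun u => F.Z x (L.e x u)) 0 : E2 →ₗ[ℝ] E2)) :=
    isUnit_iff_ne_zero.2 h4
  exact ((LinearMap.equivOfDetNeZero _ h4).surjective)

/-- `Z w` is continuous on the leaf -/
lemma Z_contAt {w : X} {η : B} (h : η ≠ L.em w) : ContinuousAt (F.Z w) η := by
  obtain ⟨x, h1, h2, h3⟩ := L.exists_frame (L.em w) η h.symm (L.lv w)
  rw [ContinuousAt, Metric.tendsto_nhds]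
  intro ε hε
  have h0 : (0 : E2) ∈ ball (0 : E2) 2 := mem_ball_self (by norm_num)
  have hc : ContinuousAt (fun u => F.Z x (L.e x u)) 0 := (F.Ze_contDiffAt x h0).continuousAt
  obtain ⟨δ, hδ, hδ'⟩ := Metric.continuousAt_iff.1 hc ε hε
  set V : Set E2 := ball 0 2 ∩ ball 0 δ with hV
  have hVo : IsOpen (L.e x '' V) :=
    isOpen_img L x (isOpen_ball.inter isOpen_ball) (inter_subset_left.trans ball23)
  have hmem : η ∈ L.e x '' V := ⟨0, ⟨h0, mem_ball_self hδ⟩, by rw [L.e_zero, h2]⟩
  filter_upwards [hVo.mem_nhds hmem] with η' hη'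
  obtain ⟨u, hu, rfl⟩ := hη'
  have h4 : L.e x u ≠ L.em w := by rw [← h1]; exact e_ne_em x (ball23 hu.1)
  rw [F.Z_leaf w x h1.symm h3.symm _ _ h4 h]
  have h5 := hδ' (x := u) (by simpa using hu.2)
  rw [L.e_zero, h2] at h5
  exact h5

/-- two charts of one leaf at the same level differ by an isometry -/
lemma same {w x : X} (h : L.em x = L.em w) (hl : L.lv x = L.lv w) :
    ∃ (G : E2 ≃ₗᵢ[ℝ] E2) (b : E2), ∀ η, η ≠ L.em w → F.Z w η = G (F.Z x η) + b := by
  set f : E2 → E2 := fun z => F.Z w (F.inv x z) with hf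
  have hne : ∀ z, F.inv x z ≠ L.em w := fun z => by rw [← h]; exact F.inv_ne x z
  have hiso : Isometry f := by
    refine Isometry.of_dist_eq (fun z z' => ?_)
    rw [hf]
    simp only
    rw [F.Z_leaf w x h.symm hl.symm _ _ (hne z) (hne z'), F.Z_inv, F.Z_inv]
  have hsurj : Function.Surjective f := by
    intro v
    refine ⟨F.Z x (F.inv w v), ?_⟩
    show F.Z w (F.inv x (F.Z x (F.inv w v))) = v
    rw [F.inv_Z (by rw [h]; exact F.inv_ne w v), F.Z_inv]
  let g : E2 ≃ᵢ E2 := ⟨Equiv.ofBijective f ⟨hiso.injective, hsurj⟩, hiso⟩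
  set ga := g.toRealAffineIsometryEquiv with hga
  refine ⟨ga.linearIsometryEquiv, f 0, fun η hη => ?_⟩
  have h1 : ∀ z, f z = ga.linearIsometryEquiv z + f 0 := by
    intro z
    have h2 : ga z = f z := rfl
    have h3 : ga 0 = f 0 := rfl
    have h4 := ga.map_vadd 0 z
    rw [vadd_eq_add, vadd_eq_add, add_zero, h2, h3] at h4
    exact h4
  rw [← h1]
  show _ = F.Z w (F.inv x (F.Z x η))
  rw [F.inv_Z (by rw [h]; exact hη)]

/-- images of neighbourhoods are neighbourhoods -/
lemma img_nhds {w : X} {η : B} (h : η ≠ L.em w) {O : Set B} (hO : O ∈ 𝓝 η) :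
    F.Z w '' (O ∩ {L.em w}ᶜ) ∈ 𝓝 (F.Z w η) := by
  obtain ⟨x, h1, h2, h3⟩ := L.exists_frame (L.em w) η h.symm (L.lv w)
  obtain ⟨G, b, hG⟩ := F.same h1 h3
  have h0 : (0 : E2) ∈ ball (0 : E2) 2 := mem_ball_self (by norm_num)
  have hec : ContinuousAt (L.e x) 0 :=
    (e_contOn L x).continuousAt (closedBall_mem_nhds _ (by norm_num))
  have hV : {u | u ∈ ball (0 : E2) 2 ∧ L.e x u ∈ O} ∈ 𝓝 (0 : E2) := by
    refine inter_mem (isOpen_ball.mem_nhds h0) ?_
    refine hec ?_
    rw [L.e_zero, h2]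
    exact hO
  have h4 : (fun u => F.Z x (L.e x u)) '' {u | u ∈ ball (0 : E2) 2 ∧ L.e x u ∈ O} ∈
      𝓝 (F.Z x (L.e x 0)) := by
    rw [← F.Ze_map_nhds x]
    exact image_mem_map hV
  rw [L.e_zero, h2] at h4
  have h5 : (fun z => G z + b) '' ((fun u => F.Z x (L.e x u)) ''
      {u | u ∈ ball (0 : E2) 2 ∧ L.e x u ∈ O}) ∈ 𝓝 (G (F.Z x η) + b) := by
    have h6 : IsOpenMap (fun z : E2 => G z + b) :=
      (isOpenMap_add_right b).comp G.toHomeomorph.isOpenMap
    exact h6.image_mem_nhds h4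
  rw [hG η h]
  refine mem_of_superset h5 ?_
  rintro _ ⟨_, ⟨u, ⟨hu1, hu2⟩, rfl⟩, rfl⟩
  have hne : L.e x u ≠ L.em w := by rw [← h1]; exact e_ne_em x (ball23 hu1)
  exact ⟨L.e x u, ⟨hu2, hne⟩, hG _ hne⟩

lemma inv_continuous (w : X) : Continuous (F.inv w) := by
  rw [continuous_iff_continuousAt]
  intro z O hO
  have h1 := F.img_nhds (F.inv_ne w z) hO
  rw [F.Z_inv] at h1
  refine mem_map.2 (mem_of_superset h1 ?_)
  rintro _ ⟨η, ⟨h2, h3⟩, rfl⟩
  rw [mem_preimage, F.inv_Z h3]
  exact h2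

/-- the inverse chart is an open embedding -/
lemma inv_openEmbedding (w : X) : IsOpenEmbedding (F.inv w) := by
  refine .of_continuous_injective_isOpenMap (F.inv_continuous w) (F.inv_inj w) ?_
  intro O hO
  have he : F.inv w '' O = {L.em w}ᶜ ∩ F.Z w ⁻¹' O := by
    ext η
    constructor
    · rintro ⟨z, hz, rfl⟩
      exact ⟨F.inv_ne w z, by rw [mem_preimage, F.Z_inv]; exact hz⟩
    · rintro ⟨h1, h2⟩
      exact ⟨F.Z w η, h2, F.inv_Z h1⟩
  rw [he]
  have hcont : ContinuousOn (F.Z w) {L.em w}ᶜ := fun η hη => (F.Z_contAt hη).continuousWithinAt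
  exact hcont.isOpen_inter_preimage isOpen_compl_singleton hO

/-- images in the two charts have the same area -/
lemma same_vol {w x : X} (h : L.em x = L.em w) (hl : L.lv x = L.lv w) {S : Set B}
    (hS : S ⊆ {L.em w}ᶜ) : volume (F.Z w '' S) = volume (F.Z x '' S) := by
  obtain ⟨G, b, hG⟩ := F.same h hl
  have e1 : F.Z w '' S = (fun z => b + z) '' (G '' (F.Z x '' S)) := by
    rw [image_image, image_image]
    refine image_congr (fun η hη => ?_)
    rw [hG η (hS hη), add_comm]
  rw [e1]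
  have h1 : MeasurePreserving (G.symm) (volume : Measure E2) volume := G.symm.measurePreserving
  have h2 : G '' (F.Z x '' S) = G.symm ⁻¹' (F.Z x '' S) := by
    exact G.toEquiv.image_eq_preimage_symm _
  rw [image_add_left, measure_preimage_add, h2]
  exact h1.measure_preimage_equiv (f := G.symm.toHomeomorph.toMeasurableEquiv) _

lemma vol_img (x : X) {V : Set E2} (hV : MeasurableSet V) (hV2 : V ⊆ ball 0 2) :
    volume (F.Z x '' (L.e x '' V)) = ∫⁻ u in V, ENNReal.ofReal (F.c₀ * A.s x u) := by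
  set f : E2 → E2 := fun u => F.Z x (L.e x u) with hf
  have hV3 : V ⊆ ball (0 : E2) 3 := hV2.trans (ball_subset_ball (by norm_num))
  have hd : ∀ u ∈ V, HasFDerivWithinAt f (fderiv ℝ f u) V u := fun u hu =>
    (((F.Z_C1 x).differentiableOn (by norm_num)).differentiableAt
      (isOpen_ball.mem_nhds (hV2 hu))).hasFDerivAt.hasFDerivWithinAt
  have hinj : InjOn f V := by
    intro u hu v hv huv
    have h1 : L.e x u ≠ L.em x := L.e_ne x u (ball_subset_closedBall (hV3 hu))
    have h2 : L.e x v ≠ L.em x := L.e_ne x v (ball_subset_closedBall (hV3 hv))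
    exact L.e_inj x (ball_subset_closedBall (hV3 hu)) (ball_subset_closedBall (hV3 hv))
      ((F.Z_bij x).injOn h1 h2 huv)
  have h1 := lintegral_abs_det_fderiv_eq_addHaar_image (volume : Measure E2) hV hd hinj
  have h2 : ∫⁻ u in V, ENNReal.ofReal |(fderiv ℝ f u).det| =
      ∫⁻ u in V, ENNReal.ofReal (F.c₀ * A.s x u) := by
    refine setLIntegral_congr_fun hV (fun u hu => ?_)
    exact congrArg ENNReal.ofReal (F.Z_det x u (hV2 hu))
  rw [← h2, h1, image_image]

open Classical in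
lemma key {w x : X} (h : L.em x = L.em w) (hl : L.lv x = L.lv w) {S : Set E2}
    (hS : MeasurableSet S) (hSx : ∀ z ∈ S, F.inv w z ∈ L.e x '' ball 0 2) :
    ∫⁻ η in F.inv w '' S, ENNReal.ofReal (Real.exp (-A.h * A.D (L.em w) η)) ∂A.ν =
      ENNReal.ofReal (Real.exp (-A.h * L.lv w) / F.c₀) * volume S := by
  set g : E2 → E2 := fun u => F.Z w (L.e x u) with hg
  have hb3 : ball (0 : E2) 2 ⊆ ball 0 3 := ball_subset_ball (by norm_num)
  have hne : ∀ u ∈ ball (0 : E2) 2, L.e x u ≠ L.em w := by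
    intro u hu
    rw [← h]
    exact L.e_ne x u (ball_subset_closedBall (hb3 hu))
  have hgc : ContinuousOn g (ball 0 2) := by
    intro u hu
    have h1 : ContinuousAt (L.e x) u :=
      (e_contOn L x).continuousAt (Filter.mem_of_superset (isOpen_ball.mem_nhds (hb3 hu))
        ball_subset_closedBall)
    exact ((F.Z_contAt (hne u hu)).comp h1).continuousWithinAt
  set V : Set E2 := ball 0 2 ∩ g ⁻¹' S with hV
  have hVm : MeasurableSet V := by
    have h1 : Measurable ((ball (0 : E2) 2).piecewise g (fun _ => 0)) :=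
      hgc.measurable_piecewise continuousOn_const measurableSet_ball
    have h2 : V = ball 0 2 ∩ ((ball (0 : E2) 2).piecewise g (fun _ => 0)) ⁻¹' S := by
      ext u
      constructor
      · rintro ⟨h1, h2⟩
        refine ⟨h1, ?_⟩
        rw [mem_preimage, piecewise_eq_of_mem _ _ _ h1]
        exact h2
      · rintro ⟨h1, h2⟩
        refine ⟨h1, ?_⟩
        rw [mem_preimage, piecewise_eq_of_mem _ _ _ h1] at h2
        exact h2
    rw [h2]
    exact measurableSet_ball.inter (h1 hS)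
  have hV2 : V ⊆ ball 0 2 := inter_subset_left
  have hV3 : V ⊆ ball 0 3 := hV2.trans hb3
  have himg : L.e x '' V = F.inv w '' S := by
    ext η
    constructor
    · rintro ⟨u, ⟨hu, huS⟩, rfl⟩
      exact ⟨_, huS, F.inv_Z (hne u hu)⟩
    · rintro ⟨z, hz, rfl⟩
      obtain ⟨u, hu, hu'⟩ := hSx z hz
      refine ⟨u, ⟨hu, ?_⟩, hu'⟩
      show F.Z w (L.e x u) ∈ S
      rw [hu', F.Z_inv]
      exact hz
  have h1 := A.ν_chart x V hVm hV3
  rw [himg, h, hl] at h1
  rw [← h1]
  have h2 := F.vol_img x hVm hV2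
  have hc := F.c₀_pos
  have h3 : ∫⁻ u in V, ENNReal.ofReal (Real.exp (-A.h * L.lv w) * A.s x u) =
      ENNReal.ofReal (Real.exp (-A.h * L.lv w) / F.c₀) *
        ∫⁻ u in V, ENNReal.ofReal (F.c₀ * A.s x u) := by
    rw [← lintegral_const_mul' _ _ ENNReal.ofReal_ne_top]
    refine lintegral_congr (fun u => ?_)
    rw [← ENNReal.ofReal_mul (by positivity)]
    congr 1
    field_simp
  have h4 : volume (F.Z w '' (L.e x '' V)) = volume (F.Z x '' (L.e x '' V)) := by
    refine F.same_vol h hl ?_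
    rintro _ ⟨u, hu, rfl⟩
    exact hne u (hV2 hu)
  have h5 : F.Z w '' (L.e x '' V) = S := by
    rw [himg, image_image]
    simp only [F.Z_inv, image_id']
  rw [h5] at h4
  rw [h4, h2, h3]

/-- the density of the visual measure in the chart -/
def dens (w : X) (z : E2) : ℝ :=
  Real.exp (A.h * A.D (L.em w) (F.inv w z) - A.h * L.lv w) / F.c₀

lemma dens_pos (w : X) (z : E2) : 0 < F.dens w z := by
  have := F.c₀_pos
  unfold dens
  positivity

lemma D_inv_cont (w : X) : Continuous fun z => A.D (L.em w) (F.inv w z) :=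
  continuous_iff_continuousAt.mpr (fun z =>
    (D_contAt A (F.inv_ne w z)).tendsto.comp ((F.inv_continuous w).tendsto z))

lemma dens_cont (w : X) : Continuous (F.dens w) := by
  have := F.D_inv_cont w
  unfold dens
  fun_prop

/-- **the visual measure in the flat chart** -/
theorem nu_comap (w : X) :
    A.ν.comap (F.inv w) = volume.withDensity fun z => ENNReal.ofReal (F.dens w z) := by
  have hc := F.c₀_pos
  have hemb : MeasurableEmbedding (F.inv w) := (F.inv_openEmbedding w).measurableEmbedding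
  have hDc := F.D_inv_cont w
  set g : B → ℝ≥0∞ := fun η => ENNReal.ofReal (Real.exp (-A.h * A.D (L.em w) η)) with hg
  set m0 : Measure E2 := A.ν.comap (F.inv w) with hm0
  set gg : E2 → ℝ≥0∞ := fun z => g (F.inv w z) with hgg
  have hggm : Measurable gg :=
    ENNReal.measurable_ofReal.comp (Real.continuous_exp.comp (continuous_const.mul hDc)).measurable
  have hset : ∀ S : Set E2, ∫⁻ z in S, gg z ∂m0 = ∫⁻ η in F.inv w '' S, g η ∂A.ν := by
    intro S
    have h1 := hemb.restrict_map m0 (F.inv w '' S)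
    rw [preimage_image_eq _ hemb.injective, hm0, hemb.map_comap,
      Measure.restrict_restrict_of_subset (image_subset_range _ _)] at h1
    rw [h1, hemb.lintegral_map]
  -- the two measures
  have hmm : m0.withDensity gg =
      ENNReal.ofReal (Real.exp (-A.h * L.lv w) / F.c₀) • (volume : Measure E2) := by
    have hxz : ∀ z : E2, ∃ x : X, L.em x = L.em w ∧ L.ep x = F.inv w z ∧ L.lv x = L.lv w :=
      fun z => L.exists_frame _ _ (F.inv_ne w z).symm _
    choose xz hx1 hx2 hx3 using hxz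
    set O : E2 → Set E2 := fun z => F.inv w ⁻¹' (L.e (xz z) '' ball 0 2) with hO
    have hOo : ∀ z, IsOpen (O z) := fun z => (isOpen_img L (xz z) isOpen_ball
        (ball_subset_ball (by norm_num))).preimage (F.inv_continuous w)
    have hOn : ∀ z, O z ∈ 𝓝 z := by
      intro z
      refine (hOo z).mem_nhds ⟨0, mem_ball_self (by norm_num), ?_⟩
      rw [L.e_zero, hx2]
    obtain ⟨t, htc, htu⟩ := TopologicalSpace.countable_cover_nhds hOn
    rw [Measure.ext_iff_of_biUnion_eq_univ htc htu]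
    intro z _
    ext S hS
    have hOm : MeasurableSet (O z) := (hOo z).measurableSet
    rw [Measure.restrict_apply hS, Measure.restrict_apply hS, withDensity_apply _ (hS.inter hOm),
      hset, F.key (hx1 z) (hx3 z) (hS.inter hOm) (fun v hv => hv.2)]
    simp
  have hne0 : ∀ z, gg z ≠ 0 := fun z => by
    rw [hgg, hg]
    simp only [ne_eq, ENNReal.ofReal_eq_zero, not_le]
    exact Real.exp_pos _
  have hnet : ∀ z, gg z ≠ ⊤ := fun z => ENNReal.ofReal_ne_top
  have e1 : m0 = (m0.withDensity gg).withDensity (fun z => (gg z)⁻¹) :=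
    (withDensity_inv_same hggm (ae_of_all _ hne0) (ae_of_all _ hnet)).symm
  have hgi : Measurable fun z => (gg z)⁻¹ := hggm.inv
  rw [e1, hmm, withDensity_smul_measure, ← withDensity_smul _ hgi]
  congr 1
  ext z
  show ENNReal.ofReal (Real.exp (-A.h * L.lv w) / F.c₀) * (gg z)⁻¹ = _
  rw [hgg, hg]
  simp only
  rw [← ENNReal.ofReal_inv_of_pos (Real.exp_pos _), ← ENNReal.ofReal_mul (by positivity)]
  congr 1
  unfold dens
  rw [← Real.exp_neg, div_mul_eq_mul_div, ← Real.exp_add]
  congr 2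
  ring

/-- the measure of a set of the leaf -/
theorem nu_image (w : X) {S : Set E2} (hS : MeasurableSet S) :
    A.ν (F.inv w '' S) = ∫⁻ z in S, ENNReal.ofReal (F.dens w z) := by
  have hemb : MeasurableEmbedding (F.inv w) := (F.inv_openEmbedding w).measurableEmbedding
  rw [← withDensity_apply _ hS, ← F.nu_comap w, hemb.comap_apply]

/-- **the total mass in the flat chart** -/
theorem nu_total (w : X) : A.ν univ = ∫⁻ z, ENNReal.ofReal (F.dens w z) := by
  have h := F.nu_image w MeasurableSet.univ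
  rw [Measure.restrict_univ, image_univ, F.inv_range] at h
  rw [← h]
  have h1 := measure_add_measure_compl (μ := A.ν) (measurableSet_singleton (L.em w))
  rw [A.ν_point, zero_add] at h1
  exact h1.symm

end FlatM

end

end Vale.Agent.P207.N4.H9
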