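import Vale.Agent.P207.N4.H9.NuA

set_option linter.all false

/-!
# P207, line N4, step 9: the bound of the visual measure, `nu_of_flat`
-/

namespace Vale.Agent.P207.N4.H9
open Set Filter Topology Metric MeasureTheory
open scoped ENNReal
open Vale.Agent.P207.H9.CrossM (dtT visual_bound)
open Vale.Agent.P207.H9.SantM (sph)

noncomputable section

variable [Dim] {Γ X B : Type} [Group Γ] [MetricSpace X] [ProperSpace X] [MulAction Γ X]
  [IsIsometricSMul Γ X] [TopologicalSpace B] [CompactSpace B] [T2Space B] [MulAction Γ B]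
  [ContinuousConstSMul Γ B] [MeasurableSpace B] [BorelSpace B]

namespace FlatM

variable {L : Leaf Γ X B} {A : Area L} (F : FlatM L A)

/-- the transition map from the chart of `w` to the chart of `w'` -/
def tr (w w' : X) (x : E2) : E2 := F.Z w' (F.inv w x)

lemma inv_ne' {w w' : X} {x : E2} (hx : x ≠ F.Z w (L.em w')) : F.inv w x ≠ L.em w' := by
  intro h
  apply hx
  rw [← h, F.Z_inv]

lemma tr_inj (w w' : X) : InjOn (F.tr w w') {F.Z w (L.em w')}ᶜ := by
  intro a ha b hb hab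
  have h1 := (F.Z_bij w').injOn (F.inv_ne' ha) (F.inv_ne' hb) hab
  exact F.inv_inj w h1

lemma inv_tr {w w' : X} {x : E2} (hx : x ≠ F.Z w (L.em w')) :
    F.inv w' (F.tr w w' x) = F.inv w x := F.inv_Z (F.inv_ne' hx)

/-- **the Jacobian of the transition** -/
theorem tr_det {w w' : X} (hne : L.em w ≠ L.em w') {c : ℝ} (hc : 0 < c)
    {P : E2 → E2 →L[ℝ] E2}
    (hP : ∀ x, x ≠ F.Z w (L.em w') → HasFDerivAt (F.tr w w') (P x) x)
    (hd : ∀ x, x ≠ F.Z w (L.em w') → |(P x).det| = c / ‖x - F.Z w (L.em w')‖ ^ (2 * Dim.m))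
    {x : E2} (hx : x ≠ F.Z w (L.em w')) :
    |(P x).det| = Real.exp (A.h * (A.D (L.em w) (F.inv w x) - A.D (L.em w') (F.inv w x)) +
      A.h * (L.lv w' - L.lv w)) := by
  set p := F.Z w (L.em w') with hp
  set O : Set E2 := {p}ᶜ with hO
  have hOo : IsOpen O := isOpen_compl_singleton
  -- the two densities
  set f1 : E2 → ℝ≥0∞ := fun x => ENNReal.ofReal (F.dens w x) with hf1
  set f2 : E2 → ℝ≥0∞ := fun x => ENNReal.ofReal (c / ‖x - p‖ ^ (2 * Dim.m)) *
    ENNReal.ofReal (F.dens w' (F.tr w w' x)) with hf2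
  have htc : ContinuousOn (F.tr w w') O := fun y hy =>
    (hP y hy).continuousAt.continuousWithinAt
  have hcc : ContinuousOn (fun x : E2 => c / ‖x - p‖ ^ (2 * Dim.m)) O := by
    refine continuousOn_const.div (by fun_prop) ?_
    intro y hy
    have : 0 < ‖y - p‖ := norm_pos_iff.2 (sub_ne_zero.2 hy)
    positivity
  have hf1c : ContinuousOn f1 O :=
    (ENNReal.continuous_ofReal.comp (F.dens_cont w)).continuousOn
  have hf2c : ContinuousOn f2 O := by
    have h1 : ContinuousOn (fun x : E2 => c / ‖x - p‖ ^ (2 * Dim.m) *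
        F.dens w' (F.tr w w' x)) O := hcc.mul ((F.dens_cont w').comp_continuousOn htc)
    have h2 : EqOn f2 (fun x => ENNReal.ofReal (c / ‖x - p‖ ^ (2 * Dim.m) *
        F.dens w' (F.tr w w' x))) O := by
      intro y hy
      have : 0 < ‖y - p‖ := norm_pos_iff.2 (sub_ne_zero.2 hy)
      exact (ENNReal.ofReal_mul (by positivity)).symm
    exact (ENNReal.continuous_ofReal.comp_continuousOn h1).congr h2
  -- equality of the integrals
  have hint : ∀ S : Set E2, MeasurableSet S → S ⊆ O → ∫⁻ y in S, f1 y = ∫⁻ y in S, f2 y := by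
    intro S hS hSO
    have h1 := F.nu_image w hS
    have himg : MeasurableSet (F.tr w w' '' S) :=
      measurable_image_of_fderivWithin hS
        (fun y hy => (hP y (hSO hy)).hasFDerivWithinAt) ((F.tr_inj w w').mono hSO)
    have h2 := F.nu_image w' himg
    have h3 : F.inv w' '' (F.tr w w' '' S) = F.inv w '' S := by
      rw [image_image]
      exact image_congr fun y hy => F.inv_tr (hSO hy)
    rw [h3, h1] at h2
    rw [hf1, h2, lintegral_image_eq_lintegral_abs_det_fderiv_mul volume hS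
      (fun y hy => (hP y (hSO hy)).hasFDerivWithinAt) ((F.tr_inj w w').mono hSO)]
    refine setLIntegral_congr_fun hS fun y hy => ?_
    rw [hd y (hSO hy)]
  have hae : f1 =ᵐ[volume.restrict O] f2 := by
    have m1 : AEMeasurable f1 (volume.restrict O) := hf1c.aemeasurable hOo.measurableSet
    have m2 : AEMeasurable f2 (volume.restrict O) := hf2c.aemeasurable hOo.measurableSet
    have : SigmaFinite (volume.restrict O : Measure E2) := inferInstance
    refine ae_eq_of_forall_setLIntegral_eq_of_sigmaFinite₀ m1 m2 ?_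
    intro S hS _
    rw [Measure.restrict_restrict hS]
    exact hint _ (hS.inter hOo.measurableSet) inter_subset_right
  have heq : EqOn f1 f2 O := by
    refine Measure.eqOn_open_of_ae_eq hae hOo hf1c hf2c
  have h1 := heq (x := x) hx
  rw [hf1, hf2] at h1
  simp only at h1
  have hxp : 0 < ‖x - p‖ := norm_pos_iff.2 (sub_ne_zero.2 hx)
  rw [← ENNReal.ofReal_mul (by positivity), ENNReal.ofReal_eq_ofReal_iff (F.dens_pos _ _).le
    (mul_nonneg (by positivity) (F.dens_pos _ _).le), ← hd x hx] at h1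
  unfold dens at h1
  rw [F.inv_tr hx] at h1
  have hc0 := F.c₀_pos
  have h2 : |(P x).det| = Real.exp (A.h * A.D (L.em w) (F.inv w x) - A.h * L.lv w) /
      Real.exp (A.h * A.D (L.em w') (F.inv w x) - A.h * L.lv w') := by
    rw [eq_div_iff (Real.exp_pos _).ne']
    have h := congrArg (fun t => t * F.c₀) h1
    rw [div_mul_cancel₀ _ hc0.ne', mul_assoc, div_mul_cancel₀ _ hc0.ne'] at h
    exact h.symm
  rw [h2, ← Real.exp_sub]
  congr 1
  ring

/-- the derivative of the chart of one leaf in the unit chart of another leaf -/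
theorem cross_deriv {x w : X} (hne : L.em x ≠ L.em w) (hx : L.ep x ≠ L.em w) :
    ∃ M : E2 →L[ℝ] E2, HasFDerivAt (fun u => F.Z w (L.e x u)) M 0 ∧
      |M.det| = Real.exp (A.h * (A.D (L.em x) (L.ep x) - A.D (L.em w) (L.ep x)) +
        A.h * (L.lv w - L.lv x)) * (F.c₀ * A.s x 0) := by
  have h0 : (0 : E2) ∈ ball (0 : E2) 2 := mem_ball_self (by norm_num)
  have e0 : L.e x 0 = L.ep x := L.e_zero x
  obtain ⟨c, hc, H⟩ := F.conf x w hne
  choose! P hP1 hP2 using H
  have hz : F.Z x (L.ep x) ≠ F.Z x (L.em w) := by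
    intro h
    exact hx ((F.Z_bij x).injOn (L.em_ne_ep x).symm hne.symm h)
  have h1 : HasFDerivAt (fun u => F.Z x (L.e x u)) (fderiv ℝ (fun u => F.Z x (L.e x u)) 0) 0 :=
    ((F.Ze_contDiffAt x h0).differentiableAt (by norm_num)).hasFDerivAt
  have h2 : HasFDerivAt (F.tr x w) (P (F.Z x (L.ep x))) (F.Z x (L.e x 0)) := by
    rw [e0]
    exact hP1 _ hz
  have h3 := h2.comp (0 : E2) h1
  have hdet := F.tr_det hne hc hP1 hP2 hz
  have hinv : F.inv x (F.Z x (L.ep x)) = L.ep x := F.inv_Z (L.em_ne_ep x).symm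
  rw [hinv] at hdet
  refine ⟨_, h3.congr_of_eventuallyEq ?_, ?_⟩
  · filter_upwards [isOpen_ball.mem_nhds h0] with u hu
    show F.Z w (L.e x u) = F.Z w (F.inv x (F.Z x (L.e x u)))
    rw [F.inv_Z (e_ne_em x (ball23 hu))]
  · have e2 : (P (F.Z x (L.ep x)) ∘L fderiv ℝ (fun u => F.Z x (L.e x u)) 0).det =
        (P (F.Z x (L.ep x))).det * (fderiv ℝ (fun u => F.Z x (L.e x u)) 0).det :=
      LinearMap.det_comp _ _
    rw [e2, abs_mul, hdet, F.Z_det x 0 h0]

/-- **the visual measure at the base point has mass at most `(2m/h)^(m/2) |S^m| / 2^m`** -/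
theorem nu_bound (F : FlatM L A) (C : CalibM L A) :
    A.ν univ ≤ ENNReal.ofReal (Real.sqrt ((2 * Dim.m / A.h) ^ Dim.m) * sph Dim.m) := by
  have hh := A.h_pos
  have hc := F.c₀_pos
  set x := C.x with hx
  -- the base point at infinity
  obtain ⟨ξ0, hξ1, hξ2⟩ : ∃ ξ0 : B, ξ0 ≠ L.em x ∧ ξ0 ≠ L.ep x := by
    haveI : Nontrivial E2 := by
      haveI : Nonempty (Fin Dim.m) := ⟨⟨0, Nat.pos_of_ne_zero (NeZero.ne Dim.m)⟩⟩
      infer_instance
    obtain ⟨z, hz⟩ := exists_ne (F.Z x (L.ep x))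
    refine ⟨F.inv x z, F.inv_ne x z, fun h => hz ?_⟩
    rw [← h, F.Z_inv]
  obtain ⟨w, hw1, -, hw3⟩ := L.exists_frame ξ0 (L.em x) hξ1 0
  have n1 : L.em x ≠ L.em w := by rw [hw1]; exact hξ1.symm
  have n2 : L.ep x ≠ L.em w := by rw [hw1]; exact hξ2.symm
  set inv := F.inv w with hinv
  set zc := F.Z w with hzc
  set D0 : E2 → ℝ := fun z => A.D (L.em w) (inv z) with hD0
  set D' : E2 → E2 → ℝ := fun ξ z => A.D (inv ξ) (inv z) with hD'
  have inv_inj : ∀ {a b : E2}, a ≠ b → inv a ≠ inv b := fun hab h => hab (F.inv_inj w h)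
  -- Moebius constants
  have hM : ∀ ξ : E2, ∃ c : ℝ, 0 < c ∧ ∀ z, ξ ≠ z →
      c / ‖z - ξ‖ ^ (2 * Dim.m) = Real.exp (A.h * (D0 z - D' ξ z)) := by
    intro ξ
    obtain ⟨w', hw1', -, hw3'⟩ := L.exists_frame (inv ξ) (L.em w) (F.inv_ne w ξ) 0
    have hne : L.em w ≠ L.em w' := by rw [hw1']; exact (F.inv_ne w ξ).symm
    obtain ⟨c, hc0, H⟩ := F.conf w w' hne
    choose! P hP1 hP2 using H
    refine ⟨c, hc0, fun z hz => ?_⟩
    have hpt : F.Z w (L.em w') = ξ := by rw [hw1']; exact F.Z_inv w ξ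
    have hz' : z ≠ F.Z w (L.em w') := by rw [hpt]; exact hz.symm
    have h1 := F.tr_det hne hc0 hP1 hP2 hz'
    rw [hP2 z hz', hpt, hw3, hw3', sub_self, mul_zero, add_zero, hw1'] at h1
    exact h1
  choose c hc0 hcz using hM
  set A0 : ℝ := 1 / F.c₀ with hA0
  have hA0p : 0 < A0 := by positivity
  set Af : E2 → ℝ := fun ξ => A0 * c ξ with hAf
  have hAfp : ∀ ξ, 0 < Af ξ := fun ξ => mul_pos hA0p (hc0 ξ)
  have hb : ∀ ξ z, ξ ≠ z → Af ξ / ‖z - ξ‖ ^ (2 * Dim.m) =
      Real.exp (A.h * (D0 z - D' ξ z)) * A0 := by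
    intro ξ z hz
    rw [← hcz ξ z hz, hAf]
    ring
  have hD0c : Continuous D0 := F.D_inv_cont w
  have hsym : ∀ ξ z, ξ ≠ z → D' ξ z = D' z ξ := fun ξ z h => D_symm A (inv_inj h)
  have hneg : ∀ ξ z, ξ ≠ z → D' ξ z ≤ 0 := fun ξ z h => C.D_nonpos _ _ (inv_inj h)
  -- the calibration
  set ξ1 := zc (L.em x) with hξ1d
  set η1 := zc (L.ep x) with hη1d
  have i1 : inv ξ1 = L.em x := F.inv_Z n1
  have i2 : inv η1 = L.ep x := F.inv_Z n2
  have hne1 : ξ1 ≠ η1 := by
    intro h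
    apply L.em_ne_ep x
    rw [← i1, ← i2, h]
  have hDx : D' ξ1 η1 = 0 := by
    rw [hD']
    simp only
    rw [i1, i2]
    exact C.D_zero
  have q2 : L.em (L.flip x) ≠ L.em w := by rw [em_flip]; exact n2
  have q3 : L.ep (L.flip x) ≠ L.em w := by rw [ep_flip']; exact n1
  obtain ⟨Lb, hLb, hLb'⟩ := F.cross_deriv n1 n2
  obtain ⟨La, hLa, hLa'⟩ := F.cross_deriv q2 q3
  rw [em_flip, ep_flip'] at hLa'
  have ex0 : L.e x 0 = L.ep x := L.e_zero x
  have ef0 : L.e (L.flip x) 0 = L.em x := by rw [L.e_zero, ep_flip']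
  -- areas
  have D1 : D0 η1 = A.D (L.em w) (L.ep x) := by
    rw [hD0]
    simp only
    rw [i2]
  have D2 : D0 ξ1 = A.D (L.em w) (L.em x) := by
    rw [hD0]
    simp only
    rw [i1]
  have D3 : D' ξ1 η1 = A.D (L.em x) (L.ep x) := by
    rw [hD']
    simp only
    rw [i1, i2]
  have D4 : D' η1 ξ1 = A.D (L.ep x) (L.em x) := by
    rw [hD']
    simp only
    rw [i1, i2]
  have e2 : A0 * F.c₀ = 1 := by rw [hA0]; field_simp
  have h1 : Af ξ1 / ‖η1 - ξ1‖ ^ (2 * Dim.m) * |Lb.det| =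
      Real.exp (-(A.h * L.lv x)) * A.s x 0 := by
    rw [hb ξ1 η1 hne1, hLb', D1, D3, hw3]
    have e : Real.exp (A.h * (A.D (L.em w) (L.ep x) - A.D (L.em x) (L.ep x))) * A0 *
        (Real.exp (A.h * (A.D (L.em x) (L.ep x) - A.D (L.em w) (L.ep x)) +
          A.h * (0 - L.lv x)) * (F.c₀ * A.s x 0)) =
        (Real.exp (A.h * (A.D (L.em w) (L.ep x) - A.D (L.em x) (L.ep x))) *
        Real.exp (A.h * (A.D (L.em x) (L.ep x) - A.D (L.em w) (L.ep x)) +
          A.h * (0 - L.lv x))) * A.s x 0 * (A0 * F.c₀) := by ring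
    rw [e, ← Real.exp_add, e2, mul_one]
    congr 2
    ring
  have h2 : Af η1 / ‖η1 - ξ1‖ ^ (2 * Dim.m) * |La.det| =
      Real.exp (-(A.h * L.lv (L.flip x))) * A.s (L.flip x) 0 := by
    rw [norm_sub_rev, hb η1 ξ1 hne1.symm, hLa', D2, D4, hw3]
    have e : Real.exp (A.h * (A.D (L.em w) (L.em x) - A.D (L.ep x) (L.em x))) * A0 *
        (Real.exp (A.h * (A.D (L.ep x) (L.em x) - A.D (L.em w) (L.em x)) +
          A.h * (0 - L.lv (L.flip x))) * (F.c₀ * A.s (L.flip x) 0)) =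
        (Real.exp (A.h * (A.D (L.em w) (L.em x) - A.D (L.ep x) (L.em x))) *
        Real.exp (A.h * (A.D (L.ep x) (L.em x) - A.D (L.em w) (L.em x)) +
          A.h * (0 - L.lv (L.flip x)))) * A.s (L.flip x) 0 * (A0 * F.c₀) := by ring
    rw [e, ← Real.exp_add, e2, mul_one]
    congr 2
    ring
  have he : (Real.exp (-(A.h * L.lv x)) * A.s x 0) *
      (Real.exp (-(A.h * L.lv (L.flip x))) * A.s (L.flip x) 0) = dtT C.T := by
    rw [← C.s_mul]
    have e : (Real.exp (-(A.h * L.lv x)) * A.s x 0) *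
      (Real.exp (-(A.h * L.lv (L.flip x))) * A.s (L.flip x) 0) =
      (Real.exp (-(A.h * L.lv x)) * Real.exp (-(A.h * L.lv (L.flip x)))) *
        (A.s x 0 * A.s (L.flip x) 0) := by ring
    rw [e, ← Real.exp_add]
    have e2 : -(A.h * L.lv x) + -(A.h * L.lv (L.flip x)) = 0 := by
      have h3 := D_eq' A x
      rw [C.D_zero] at h3
      have : -(A.h * L.lv x) + -(A.h * L.lv (L.flip x)) =
        -A.h * (L.lv x + L.lv (L.flip x)) := by ring
      rw [this, ← h3, mul_zero]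
    rw [e2, Real.exp_zero, one_mul]
  have hlim : ∀ Xv Yv : E2, Tendsto (fun s : ℝ =>
      (D' (zc (L.e (L.flip x) (s • Yv))) (zc (L.e x (s • Xv))) + D' ξ1 η1 -
      D' ξ1 (zc (L.e x (s • Xv))) - D' (zc (L.e (L.flip x) (s • Yv))) η1) / s ^ 2)
      (𝓝[>] 0) (𝓝 (-C.T Xv Yv)) := by
    intro Xv Yv
    refine (C.lim Xv Yv).congr' ?_
    have tb : ∀ᶠ s : ℝ in 𝓝[>] 0, L.e x (s • Xv) ≠ L.em w := by
      have h3 : ContinuousAt (L.e x) ((0 : ℝ) • Xv) := by
        rw [zero_smul]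
        exact (e_contOn L x).continuousAt (closedBall_mem_nhds _ (by norm_num))
      have h4 : Tendsto (fun s : ℝ => s • Xv) (𝓝 0) (𝓝 ((0 : ℝ) • Xv)) :=
        Continuous.tendsto (by fun_prop) 0
      have h5 := h3.tendsto.comp h4
      have h6 : L.e x ((0 : ℝ) • Xv) ≠ L.em w := by
        rw [zero_smul, ex0]
        exact n2
      exact (h5.eventually_ne h6).filter_mono nhdsWithin_le_nhds
    have ta : ∀ᶠ s : ℝ in 𝓝[>] 0, L.e (L.flip x) (s • Yv) ≠ L.em w := by
      have h3 : ContinuousAt (L.e (L.flip x)) ((0 : ℝ) • Yv) := by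
        rw [zero_smul]
        exact (e_contOn L (L.flip x)).continuousAt (closedBall_mem_nhds _ (by norm_num))
      have h4 : Tendsto (fun s : ℝ => s • Yv) (𝓝 0) (𝓝 ((0 : ℝ) • Yv)) :=
        Continuous.tendsto (by fun_prop) 0
      have h5 := h3.tendsto.comp h4
      have h6 : L.e (L.flip x) ((0 : ℝ) • Yv) ≠ L.em w := by
        rw [zero_smul, ef0]
        exact n1
      exact (h5.eventually_ne h6).filter_mono nhdsWithin_le_nhds
    filter_upwards [ta, tb] with s hs1 hs2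
    rw [hD']
    simp only
    have j1 : inv (zc (L.e (L.flip x) (s • Yv))) = L.e (L.flip x) (s • Yv) := F.inv_Z hs1
    have j2 : inv (zc (L.e x (s • Xv))) = L.e x (s • Xv) := F.inv_Z hs2
    rw [j1, j2, i1, i2]
  have key := visual_bound hh hA0p hAfp hD0c.measurable hsym hneg hb hne1 hDx hLa hLb
    (by rw [ef0]) (by rw [ex0]) C.T_pos hlim he h1 h2
  rw [F.nu_total w]
  refine le_trans (le_of_eq (lintegral_congr fun z => ?_)) key
  congr 1
  unfold dens
  rw [hw3, mul_zero, sub_zero, hA0, hD0, mul_one_div]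

end FlatM

end

end Vale.Agent.P207.N4.H9
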