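import Vale.Agent.P207.N4.H9.NuB
import Vale.Agent.P207.N4.H662.FDefs

/-!
# P207, line N4, step 9: the bound of the visual measure from flat charts and the calibration
-/

open Set Filter Topology Metric MeasureTheory
open scoped ContDiff

noncomputable section

namespace Vale.Agent.P207.N4.H9

open Vale.Agent.P207.H9

variable [Dim] {Γ X B : Type} [Group Γ] [MetricSpace X] [ProperSpace X] [MulAction Γ X]
  [IsIsometricSMul Γ X] [TopologicalSpace B] [CompactSpace B] [T2Space B] [MulAction Γ B]
  [ContinuousConstSMul Γ B] [MeasurableSpace B] [BorelSpace B]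

/-- the calibration in the words of `H662` -/
def CalibM.of {L : Leaf Γ X B} {A : Area L} (C : H662.Calib L A) : CalibM L A where
  x := C.x
  T := C.T
  T_pos := C.T_pos
  D_zero := C.D_zero
  s_mul := C.s_mul
  lim := C.lim
  D_nonpos := C.D_nonpos

/-- **The bound of the visual measure.** -/
theorem nu_of_flat {L : Leaf Γ X B} {A : Area L} (F : FlatM L A) (C : H662.Calib L A) :
    A.ν univ ≤ ENNReal.ofReal (Real.sqrt ((2 * Dim.m / A.h) ^ Dim.m) * SantM.sph Dim.m) :=
  F.nu_bound (CalibM.of C)

end Vale.Agent.P207.N4.H9
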